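import Vale.Agent.P025.R2.H816.J03
import Vale.Agent.P025.R2.H210.Exp

/-! # Laurent expansion of the functions of a function field at a place

(E2) for every `s` with `ord P s = 1` there is a `C`-algebra homomorphism
`lau P s : K → LaurentSeries C`, `s ↦ X`, with `(lau y).order = ord P y`;
(E3) in characteristic zero, if `ord P T = -N < 0`, there is such a homomorphism with
`T ↦ X ^ (-N)`. -/

open PowerSeries

namespace P025H609

open Vale.Agent.P019P P025H210

section series

variable {C : Type*} [Field C]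

/-- power series as Laurent series -/
noncomputable abbrev oP : C⟦X⟧ →+* LaurentSeries C := HahnSeries.ofPowerSeries ℤ C

lemma oP_order_nonneg (f : C⟦X⟧) : 0 ≤ (oP f).order := by
  by_cases h : oP f = 0
  · rw [h, HahnSeries.order_zero]
  by_contra hlt
  push Not at hlt
  have h1 := HahnSeries.coeff_order_eq_zero.not.2 h
  apply h1
  rw [HahnSeries.ofPowerSeries_apply]
  refine HahnSeries.embDomain_of_notMem_range ?_
  rintro ⟨n, hn⟩
  have : (n : ℤ) = (oP f).order := hn
  omega

lemma oP_injective : Function.Injective (oP : C⟦X⟧ →+* LaurentSeries C) :=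
  HahnSeries.ofPowerSeries_injective

lemma oP_X : oP (X : C⟦X⟧) = HahnSeries.single 1 1 := by simp [oP]

lemma oP_C (c : C) : oP (PowerSeries.C c) = algebraMap C (LaurentSeries C) c := by
  rw [oP, HahnSeries.ofPowerSeries_C, LaurentSeries.algebraMap_apply]

/-- Laurent series of nonnegative order are power series -/
lemma exists_oP {z : LaurentSeries C} (hz : 0 ≤ z.order) : ∃ f : C⟦X⟧, oP f = z := by
  obtain ⟨n, hn⟩ := Int.eq_ofNat_of_zero_le hz
  refine ⟨X ^ n * z.powerSeriesPart, ?_⟩
  rw [map_mul, map_pow, oP_X]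
  conv_rhs => rw [← LaurentSeries.single_order_mul_powerSeriesPart z]
  congr 1
  rw [hn, HahnSeries.single_pow]
  simp

lemma order_inv (z : LaurentSeries C) : (z⁻¹).order = - z.order := by
  by_cases hz : z = 0
  · rw [hz, inv_zero, HahnSeries.order_zero, neg_zero]
  have h1 := HahnSeries.order_mul hz (inv_ne_zero hz)
  rw [mul_inv_cancel₀ hz, HahnSeries.order_one] at h1
  omega

lemma order_pow' {z : LaurentSeries C} (hz : z ≠ 0) (n : ℕ) : (z ^ n).order = n * z.order := by
  induction n with
  | zero => rw [pow_zero, HahnSeries.order_one, Nat.cast_zero, zero_mul]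
  | succ n ih =>
    rw [pow_succ, HahnSeries.order_mul (pow_ne_zero n hz) hz, ih]
    push_cast
    ring

lemma order_zpow' {z : LaurentSeries C} (hz : z ≠ 0) (n : ℤ) : (z ^ n).order = n * z.order := by
  cases n with
  | ofNat n =>
    rw [Int.ofNat_eq_natCast, zpow_natCast]
    exact order_pow' hz n
  | negSucc n =>
    rw [zpow_negSucc, order_inv, order_pow' hz, Int.negSucc_eq]
    push_cast
    ring

/-- a homomorphism into Laurent series which maps functions of nonnegative value to power series
and has the right order at an element of value one preserves orders -/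
lemma order_eq {K : Type*} [Field K] {f : K → ℤ} (hmul : ∀ x y, x ≠ 0 → y ≠ 0 → f (x * y) = f x + f y)
    {s : K} (hs : s ≠ 0) (hs1 : f s = 1) (φ : K →+* LaurentSeries C) (h1 : (φ s).order = 1)
    (h0 : ∀ y, y ≠ 0 → 0 ≤ f y → 0 ≤ (φ y).order) {y : K} (hy : y ≠ 0) : (φ y).order = f y := by
  have hone : f 1 = 0 := by
    have := hmul 1 1 one_ne_zero one_ne_zero
    rw [one_mul] at this
    omega
  have hinv : ∀ x, x ≠ 0 → f x⁻¹ = - f x := by
    intro x hx
    have := hmul x x⁻¹ hx (inv_ne_zero hx)
    rw [mul_inv_cancel₀ hx, hone] at this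
    omega
  have hpow : ∀ (x : K) (n : ℕ), x ≠ 0 → f (x ^ n) = n * f x := by
    intro x n hx
    induction n with
    | zero => rw [pow_zero, hone, Nat.cast_zero, zero_mul]
    | succ n ih =>
      rw [pow_succ, hmul _ _ (pow_ne_zero n hx) hx, ih]
      push_cast
      ring
  have hzpow : ∀ (n : ℤ), f (s ^ n) = n := by
    intro n
    cases n with
    | ofNat n =>
      rw [Int.ofNat_eq_natCast, zpow_natCast, hpow s n hs, hs1, mul_one]
    | negSucc n =>
      rw [zpow_negSucc, hinv _ (pow_ne_zero _ hs), hpow _ _ hs, hs1, mul_one, Int.negSucc_eq]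
      push_cast
      ring
  have hφs : φ s ≠ 0 := (map_ne_zero φ).2 hs
  have hunit : ∀ u, u ≠ 0 → f u = 0 → (φ u).order = 0 := by
    intro u hu hfu
    have h2 := h0 u hu hfu.ge
    have h3 := h0 u⁻¹ (inv_ne_zero hu) (by rw [hinv u hu, hfu, neg_zero])
    rw [map_inv₀, order_inv] at h3
    omega
  have hs' : s ^ f y ≠ 0 := zpow_ne_zero _ hs
  have e : y = s ^ f y * (y * (s ^ f y)⁻¹) := by field_simp
  have hu : y * (s ^ f y)⁻¹ ≠ 0 := mul_ne_zero hy (inv_ne_zero hs')
  have hfu : f (y * (s ^ f y)⁻¹) = 0 := by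
    rw [hmul _ _ hy (inv_ne_zero hs'), hinv _ hs', hzpow]
    omega
  have h4 := hunit _ hu hfu
  have h5 : (φ y).order = (φ (s ^ f y) * φ (y * (s ^ f y)⁻¹)).order := by
    rw [← map_mul, ← e]
  rw [h5, HahnSeries.order_mul ((map_ne_zero φ).2 hs') ((map_ne_zero φ).2 hu), h4, add_zero,
    map_zpow₀, order_zpow' hφs, h1, mul_one]

/-- roots of invertible power series -/
lemma exists_root [CharZero C] [IsAlgClosed C] {N : ℕ} (hN : N ≠ 0) {u : C⟦X⟧}
    (hu : constantCoeff u ≠ 0) : ∃ r : C⟦X⟧, r ^ N = u ∧ constantCoeff r ≠ 0 := by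
  let B : C⟦X⟧ := binomialSeries C (1 / N : ℚ)
  have hB : B ^ N = 1 + X := by
    have h1 : ∀ n : ℕ, B ^ n = binomialSeries C ((n : ℚ) * (1 / N)) := by
      intro n
      induction n with
      | zero => simp
      | succ n ih =>
        rw [pow_succ, ih, Nat.cast_succ, add_mul, one_mul, binomialSeries_add]
    rw [h1, mul_one_div, div_self (by exact_mod_cast hN)]
    have h2 := binomialSeries_nat (R := ℚ) (A := C) 1
    simpa using h2
  let a : C⟦X⟧ := PowerSeries.C (constantCoeff u)⁻¹ * u - 1
  have ha : constantCoeff a = 0 := by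
    simp [a, hu]
  have hs : HasSubst a := HasSubst.of_constantCoeff_zero' ha
  obtain ⟨c, hc⟩ := IsAlgClosed.exists_pow_nat_eq (constantCoeff u) (Nat.pos_of_ne_zero hN)
  have h3 : (PowerSeries.C c * B.subst a) ^ N = u := by
    rw [mul_pow, ← map_pow, hc, ← subst_pow hs, hB, subst_add hs, subst_X hs]
    have h5 : (1 : C⟦X⟧).subst a = (1 : C⟦X⟧) := by
      have := map_one (substAlgHom (R := C) (S := C) hs)
      rwa [coe_substAlgHom] at this
    rw [h5]
    simp only [a, add_sub_cancel]
    rw [← mul_assoc, ← map_mul, mul_inv_cancel₀ hu, map_one, one_mul]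
  refine ⟨_, h3, fun h0 => hu ?_⟩
  rw [← h3, map_pow, h0, zero_pow hN]

/-- every power series is uniquely `c + X r b`, `r` invertible -/
lemma isExp_X_mul {r : C⟦X⟧} (hr : constantCoeff r ≠ 0) : IsExp C (X * r) where
  ex a := by
    have h1 : (X : C⟦X⟧) ∣ a - PowerSeries.C (constantCoeff a) := by
      rw [PowerSeries.X_dvd_iff]
      simp
    obtain ⟨b, hb⟩ := h1
    refine ⟨constantCoeff a, r⁻¹ * b, ?_⟩
    have h2 : r * r⁻¹ = 1 := PowerSeries.mul_inv_cancel r hr
    have h3 : X * r * (r⁻¹ * b) = X * b := by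
      rw [show X * r * (r⁻¹ * b) = X * (r * r⁻¹) * b by ring, h2, mul_one]
    rw [h3, ← hb]
    change a = PowerSeries.C (constantCoeff a) + _
    ring
  uniq c b h := by
    have h1 : c = 0 := by
      have h2 := congrArg constantCoeff h
      change constantCoeff (PowerSeries.C c + X * r * b) = _ at h2
      simpa using h2
    refine ⟨h1, ?_⟩
    rw [h1, map_zero, zero_add] at h
    have h2 : X * r ≠ 0 := by
      intro h3
      rcases mul_eq_zero.1 h3 with h4 | h4
      · exact PowerSeries.X_ne_zero h4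
      · exact hr (by rw [h4, map_zero])
    exact (mul_eq_zero.1 h).resolve_left h2

/-- substitution: an automorphism of Laurent series with `X r ↦ X`, preserving orders -/
theorem exists_subst {r : C⟦X⟧} (hr : constantCoeff r ≠ 0) :
    ∃ σ : LaurentSeries C →ₐ[C] LaurentSeries C, σ (oP (X * r)) = HahnSeries.single 1 1 ∧
      ∀ z, (σ z).order = z.order := by
  have h := isExp_X_mul hr
  have hXr : constantCoeff (X * r) = 0 := by simp
  have hinj : Function.Injective h.expn := by
    rw [injective_iff_map_eq_zero]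
    intro a ha
    rw [h.expn_eq_zero_iff] at ha
    ext n
    have h1 : (X : C⟦X⟧) ^ (n + 1) ∣ a := by
      refine Dvd.dvd.trans ?_ (ha (n + 1))
      rw [mul_pow]
      exact dvd_mul_right _ _
    rw [PowerSeries.X_pow_dvd_iff] at h1
    rw [h1 n (Nat.lt_succ_self n), map_zero]
  let g : C⟦X⟧ →+* LaurentSeries C := oP.comp h.expn.toRingHom
  have hg : Function.Injective g := oP_injective.comp hinj
  let σ₀ : LaurentSeries C →+* LaurentSeries C := IsFractionRing.lift (A := C⟦X⟧) hg
  have hσ : ∀ f : C⟦X⟧, σ₀ (oP f) = oP (h.expn f) := fun f =>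
    IsFractionRing.lift_algebraMap (A := C⟦X⟧) hg f
  let σ : LaurentSeries C →ₐ[C] LaurentSeries C :=
    { σ₀ with
      commutes' := fun c => by
        change σ₀ (algebraMap C (LaurentSeries C) c) = _
        rw [← oP_C, hσ]
        congr 1
        exact h.expn.commutes c }
  have h1 : σ (oP (X * r)) = HahnSeries.single 1 1 := by
    change σ₀ (oP (X * r)) = _
    rw [hσ, h.expn_p, oP_X]
  refine ⟨σ, h1, fun z => ?_⟩
  by_cases hz : z = 0
  · rw [hz, map_zero]
  have hXr0 : oP (X * r) ≠ 0 := by
    intro h2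
    have h3 : X * r = 0 := oP_injective (by rw [h2, map_zero])
    rcases mul_eq_zero.1 h3 with h4 | h4
    · exact PowerSeries.X_ne_zero h4
    · exact hr (by rw [h4, map_zero])
  have hro : (oP r).order = 0 := by
    have h2 := oP_order_nonneg r
    have h3 := oP_order_nonneg r⁻¹
    have h4 : oP r * oP r⁻¹ = 1 := by
      rw [← map_mul, PowerSeries.mul_inv_cancel r hr, map_one]
    have h5 : oP r ≠ 0 := left_ne_zero_of_mul_eq_one h4
    have h6 : oP r⁻¹ ≠ 0 := right_ne_zero_of_mul_eq_one h4
    have h7 := HahnSeries.order_mul h5 h6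
    rw [h4, HahnSeries.order_one] at h7
    omega
  refine order_eq (f := fun z : LaurentSeries C => z.order)
    (fun x y hx hy => HahnSeries.order_mul hx hy) hXr0 ?_ (σ : LaurentSeries C →+* LaurentSeries C)
    ?_ ?_ hz
  · have h2 : oP (X : C⟦X⟧) ≠ 0 := (map_ne_zero_iff _ oP_injective).2 PowerSeries.X_ne_zero
    have h3 : oP r ≠ 0 := fun h4 => hr (by
      rw [(map_eq_zero_iff _ oP_injective).1 h4, map_zero])
    change (oP (X * r)).order = 1
    rw [map_mul, HahnSeries.order_mul h2 h3, hro, add_zero, oP_X, HahnSeries.order_single one_ne_zero]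
  · change (σ (oP (X * r))).order = 1
    rw [h1, HahnSeries.order_single one_ne_zero]
  · intro y hy hy0
    obtain ⟨f, rfl⟩ := exists_oP hy0
    change 0 ≤ (σ₀ (oP f)).order
    rw [hσ]
    exact oP_order_nonneg _

end series

section place

variable {C K : Type*} [Field C] [Field K] [Algebra C K] [CFF C K]

/-- the valuation ring of `P` as a `C`-algebra -/
def ringP (P : Plk C K) : Subalgebra C K where
  __ := P.1.toSubring
  algebraMap_mem' := P.2.1

omit [CFF C K] in
lemma mem_ringP {P : Plk C K} {y : K} : y ∈ ringP P ↔ y ∈ P.1 := Iff.rfl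

instance (P : Plk C K) : IsFractionRing (ringP P) K :=
  inferInstanceAs (IsFractionRing P.1 K)

lemma ord_mem {P : Plk C K} {s : K} (hs : ord P s = 1) : s ∈ ringP P :=
  (mem_iff_ord P s).2 (Or.inr (by omega))

lemma ord_ne_zero {P : Plk C K} {s : K} (hs : ord P s = 1) : s ≠ 0 := by
  rintro rfl
  rw [ord_zero] at hs
  omega

lemma isExp_place {P : Plk C K} {s : K} (hs : ord P s = 1) :
    IsExp C (⟨s, ord_mem hs⟩ : ringP P) where
  ex a := by
    obtain ⟨c, hc⟩ := exists_cst P (z := (a : K)) a.2
    rcases hc with hc | hc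
    · refine ⟨c, 0, ?_⟩
      rw [mul_zero, add_zero]
      exact Subtype.ext hc
    · have h0 : (a : K) - algebraMap C K c ≠ 0 := by
        intro h1
        rw [h1, ord_zero] at hc
        omega
      have hs0 := ord_ne_zero hs
      have h1 : ((a : K) - algebraMap C K c) * s⁻¹ ∈ ringP P := by
        refine (mem_iff_ord P _).2 (Or.inr ?_)
        rw [ord_mul P h0 (inv_ne_zero hs0), ord_inv, hs]
        omega
      refine ⟨c, ⟨_, h1⟩, Subtype.ext ?_⟩
      change (a : K) = algebraMap C K c + s * (((a : K) - algebraMap C K c) * s⁻¹)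
      field_simp
      ring
  uniq c b h := by
    have h' : algebraMap C K c + s * (b : K) = 0 := congrArg Subtype.val h
    have hs0 := ord_ne_zero hs
    by_cases hb : (b : K) = 0
    · rw [hb, mul_zero, add_zero] at h'
      exact ⟨(_root_.map_eq_zero _).1 h', Subtype.ext hb⟩
    · exfalso
      have h1 : algebraMap C K c = - (s * (b : K)) := by linear_combination h'
      have h2 : ord P (algebraMap C K c) = 0 := ord_const P c
      rw [h1, ord_neg, ord_mul P hs0 hb, hs] at h2
      have h3 := ((mem_iff_ord P (b : K)).1 b.2).resolve_left hb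
      omega

variable (P : Plk C K) (s : K) (hs : ord P s = 1)

lemma expn_injective : Function.Injective (isExp_place hs).expn := by
  rw [injective_iff_map_eq_zero]
  intro a ha
  rw [(isExp_place hs).expn_eq_zero_iff] at ha
  by_contra h0
  have h0' : (a : K) ≠ 0 := fun h => h0 (Subtype.ext h)
  obtain ⟨b, hb⟩ := ha ((ord P (a : K)).toNat + 1)
  have hb' : (a : K) = s ^ ((ord P (a : K)).toNat + 1) * (b : K) := congrArg Subtype.val hb
  have hb0 : (b : K) ≠ 0 := by
    intro h
    rw [h, mul_zero] at hb'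
    exact h0' hb'
  have h1 := ord_mul P (pow_ne_zero ((ord P (a : K)).toNat + 1) (ord_ne_zero hs)) hb0
  rw [← hb', ord_pow, hs] at h1
  have h2 := ((mem_iff_ord P (b : K)).1 b.2).resolve_left hb0
  push_cast at h1
  omega

/-- (E2) the Laurent expansion at `P` in powers of `s` -/
noncomputable def lau : K →ₐ[C] LaurentSeries C :=
  let g : ringP P →+* LaurentSeries C := oP.comp (isExp_place hs).expn.toRingHom
  have hg : Function.Injective g := oP_injective.comp (expn_injective P s hs)
  { (IsFractionRing.lift hg : K →+* LaurentSeries C) with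
    commutes' := fun c => by
      change (IsFractionRing.lift hg : K →+* LaurentSeries C) (algebraMap C K c) = _
      have h1 := IsFractionRing.lift_algebraMap (K := K) hg (algebraMap C (ringP P) c)
      rw [← IsScalarTower.algebraMap_apply C (ringP P) K] at h1
      rw [h1, ← oP_C]
      change oP ((isExp_place hs).expn (algebraMap C (ringP P) c)) = _
      rw [AlgHom.commutes]
      rfl }

lemma lau_apply (a : ringP P) : lau P s hs (a : K) = oP ((isExp_place hs).expn a) :=
  IsFractionRing.lift_algebraMap (K := K) (oP_injective.comp (expn_injective P s hs)) a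

theorem lau_s : lau P s hs s = HahnSeries.single 1 1 := by
  have h1 := lau_apply P s hs ⟨s, ord_mem hs⟩
  rw [(isExp_place hs).expn_p, oP_X] at h1
  exact h1

theorem lau_order {y : K} (hy : y ≠ 0) : (lau P s hs y).order = ord P y := by
  refine order_eq (f := ord P) (fun x y hx hy => ord_mul P hx hy) (ord_ne_zero hs) hs
    (lau P s hs : K →+* LaurentSeries C) ?_ ?_ hy
  · change (lau P s hs s).order = 1
    rw [lau_s, HahnSeries.order_single one_ne_zero]
  · intro z hz hz0
    have h1 : z ∈ ringP P := (mem_iff_ord P z).2 (Or.inr hz0)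
    change 0 ≤ (lau P s hs z).order
    rw [lau_apply P s hs ⟨z, h1⟩]
    exact oP_order_nonneg _

omit s hs in
/-- a Laurent expansion -/
theorem exists_lau : ∃ φ : K →ₐ[C] LaurentSeries C, ∀ y : K, y ≠ 0 → (φ y).order = ord P y := by
  obtain ⟨s, -, hs⟩ := exists_unif P
  exact ⟨lau P s hs, fun y hy => lau_order P s hs hy⟩

omit s hs in
/-- (E3) a Laurent expansion in which a function of order `-N` is `X ^ (-N)` -/
theorem exists_lau_pole [CharZero C] [IsAlgClosed C] {T : K} {N : ℤ} (hN : 0 < N)
    (hT : ord P T = -N) : ∃ ψ : K →ₐ[C] LaurentSeries C, ψ T = HahnSeries.single (-N) 1 ∧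
      ∀ y : K, y ≠ 0 → (ψ y).order = ord P y := by
  obtain ⟨n, rfl⟩ := Int.eq_ofNat_of_zero_le hN.le
  have hn : n ≠ 0 := by
    rintro rfl
    simp at hN
  obtain ⟨φ, hφ⟩ := exists_lau P
  have hT0 : T ≠ 0 := by
    rintro rfl
    rw [ord_zero] at hT
    omega
  -- `T⁻¹ = X ^ n u`
  have h1 : (φ T⁻¹).order = n := by rw [hφ _ (inv_ne_zero hT0), ord_inv, hT, neg_neg]
  have h2 : φ T⁻¹ ≠ 0 := (map_ne_zero φ).2 (inv_ne_zero hT0)
  let u : C⟦X⟧ := (φ T⁻¹).powerSeriesPart
  have hu : constantCoeff u ≠ 0 := by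
    rw [← coeff_zero_eq_constantCoeff_apply, LaurentSeries.powerSeriesPart_coeff]
    simpa using HahnSeries.coeff_order_eq_zero.not.2 h2
  obtain ⟨r, hr, hr0⟩ := exists_root hn hu
  obtain ⟨σ, hσ, hσo⟩ := exists_subst hr0
  refine ⟨σ.comp φ, ?_, fun y hy => ?_⟩
  · have h3 : φ T⁻¹ = oP (X * r) ^ n := by
      rw [← map_pow, mul_pow, hr, map_mul, map_pow, oP_X]
      conv_lhs => rw [← LaurentSeries.single_order_mul_powerSeriesPart (φ T⁻¹)]
      congr 1
      rw [h1, HahnSeries.single_pow]
      simp
    have h4 : σ (φ T⁻¹) = HahnSeries.single (n : ℤ) 1 := by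
      rw [h3, map_pow, hσ, HahnSeries.single_pow]
      simp
    rw [AlgHom.comp_apply]
    have h5 : σ (φ T) * σ (φ T⁻¹) = 1 := by
      rw [← map_mul, ← map_mul, mul_inv_cancel₀ hT0, map_one, map_one]
    rw [h4] at h5
    have h6 : (HahnSeries.single (-(n : ℤ)) (1 : C) : LaurentSeries C) *
        HahnSeries.single (n : ℤ) 1 = 1 := by
      rw [HahnSeries.single_mul_single]
      simp
    have h7 : (HahnSeries.single (n : ℤ) (1 : C) : LaurentSeries C) ≠ 0 := by
      rw [Ne, HahnSeries.single_eq_zero_iff]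
      exact one_ne_zero
    exact mul_right_cancel₀ h7 (h5.trans h6.symm)
  · rw [AlgHom.comp_apply, hσo, hφ y hy]

end place

end P025H609
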